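import Vale.Agent.P159.T1.D.H469.Cov
import Vale.Agent.P159.T1.D.Stmts

/-!
The variance bound from the bound for exponential moments; the defect form.
-/

open Filter Topology

namespace Vale.Agent.P159.T1.D.H469

open Vale.Agent.P159 Vale.Agent.P159.H353 Vale.Agent.P159.T1.D

lemma osc_smul (l : ℕ) (S : Finset Bnd) (c : ℝ) (B : Bnd → ℝ) :
    osc l S (fun e => c * B e) = c ^ 2 * osc l S B := by
  unfold osc
  rw [Finset.mul_sum]
  refine Finset.sum_congr rfl fun e _ => ?_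
  rw [Finset.mul_sum]
  exact Finset.sum_congr rfl fun u _ => by ring

lemma osc_nonneg (l : ℕ) (S : Finset Bnd) (B : Bnd → ℝ) : 0 ≤ osc l S B :=
  Finset.sum_nonneg fun _ _ => Finset.sum_nonneg fun _ _ => sq_nonneg _

/-- second order expansion at `0` of a bound for exponential moments -/
lemma second_order {v A s0 : ℝ} (h0 : 0 < s0)
    (H : ∀ s : ℝ, 0 < s → s ≤ s0 → 1 + s * v / 2 ≤ Real.exp (s * A / 2)) : v ≤ A := by
  have hd : HasDerivAt (fun s : ℝ => Real.exp (s * A / 2)) (A / 2) 0 := by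
    have h1 : HasDerivAt (fun s : ℝ => s * A / 2) (A / 2) 0 := by
      simpa using ((hasDerivAt_id (0 : ℝ)).mul_const A).div_const 2
    simpa using h1.exp
  have hl := hd.tendsto_slope_zero_right
  have hev : ∀ᶠ t in 𝓝[>] (0 : ℝ), v / 2 ≤
      t⁻¹ • (Real.exp ((0 + t) * A / 2) - Real.exp (0 * A / 2)) := by
    filter_upwards [Ioc_mem_nhdsGT h0] with t ht
    have := H t ht.1 ht.2
    rw [zero_add, zero_mul, zero_div, Real.exp_zero, smul_eq_mul, inv_mul_eq_div,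
      le_div_iff₀ ht.1]
    linarith
  have := ge_of_tendsto hl hev
  linarith

/-- **D.UV from D.U** -/
theorem uv_of_u (hU : StmtU) : StmtUV := by
  intro b ε hb hε
  obtain ⟨l, η, C, hη, hC, H⟩ := hU b ε hb hε
  refine ⟨l, 2 * C, by positivity, fun U S B hB => ?_⟩
  set β : ℝ := ∑ e ∈ S, |B e| with hβ
  have hβ0 : 0 ≤ β := Finset.sum_nonneg fun _ _ => abs_nonneg _
  have hβ1 : ∀ e, |B e| ≤ β := by
    intro e
    by_cases he : e ∈ S
    · exact Finset.single_le_sum (f := fun e => |B e|) (fun _ _ => abs_nonneg _) he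
    · rw [hB e he, abs_zero]
      exact hβ0
  refine second_order (s0 := (η / (β + 1)) ^ 2) (by positivity) fun s hs hs0 => ?_
  have ht : Real.sqrt s ^ 2 = s := Real.sq_sqrt hs.le
  have ht0 : 0 ≤ Real.sqrt s := Real.sqrt_nonneg s
  have ht1 : Real.sqrt s ≤ η / (β + 1) := by
    rw [← Real.sqrt_sq (show 0 ≤ η / (β + 1) by positivity)]
    exact Real.sqrt_le_sqrt hs0
  set t : ℝ := Real.sqrt s with ht'
  have h1 := H U S 0 (fun e => t * B e) (fun e he => by rw [hB e he, mul_zero]) (fun e => by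
    rw [abs_mul, abs_of_nonneg ht0]
    calc t * |B e| ≤ η / (β + 1) * (β + 1) :=
          mul_le_mul ht1 ((hβ1 e).trans (by linarith)) (abs_nonneg _) (by positivity)
      _ = η := by field_simp)
  have h2 := ZB_ge hb.le U fun e => t * B e
  rw [Vr_smul, ht] at h2
  have e1 : ∑ e ∈ S, (t * B e) ^ 2 = s * ∑ e ∈ S, B e ^ 2 := by
    rw [Finset.mul_sum]
    refine Finset.sum_congr rfl fun e _ => ?_
    rw [mul_pow, ht]
  rw [osc_smul, ht, e1] at h1
  have h3 := h2.trans h1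
  have hZ := Z_pos hb.le U
  have h4 := le_of_mul_le_mul_right h3 hZ
  refine h4.trans (le_of_eq ?_)
  congr 1
  ring

/-! ### the defect form -/

/-- the polar form of `osc` -/
noncomputable def osb (l : ℕ) (S : Finset Bnd) (B B' : Bnd → ℝ) : ℝ :=
  ∑ e ∈ S, ∑ u ∈ Finset.Icc (-(l : ℤ), -(l : ℤ)) ((l : ℤ), (l : ℤ)),
    (B (sh u e) - B e) * (B' (sh u e) - B' e)

lemma osb_self (l : ℕ) (S : Finset Bnd) (B : Bnd → ℝ) : osb l S B B = osc l S B := by
  unfold osb osc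
  exact Finset.sum_congr rfl fun e _ => Finset.sum_congr rfl fun u _ => (pow_two _).symm

lemma osc_add_smul (l : ℕ) (S : Finset Bnd) (B B' : Bnd → ℝ) (x : ℝ) :
    osc l S (fun e => B e + x * B' e) =
      osc l S B + 2 * x * osb l S B B' + x ^ 2 * osc l S B' := by
  unfold osc osb
  rw [Finset.mul_sum, Finset.mul_sum, ← Finset.sum_add_distrib, ← Finset.sum_add_distrib]
  refine Finset.sum_congr rfl fun e _ => ?_
  rw [Finset.mul_sum, Finset.mul_sum, ← Finset.sum_add_distrib, ← Finset.sum_add_distrib]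
  exact Finset.sum_congr rfl fun u _ => by ring

lemma osb_sq_le (l : ℕ) (S : Finset Bnd) (B B' : Bnd → ℝ) :
    osb l S B B' ^ 2 ≤ osc l S B * osc l S B' :=
  disc fun x => by
    rw [← osc_add_smul]
    exact osc_nonneg l S _

lemma sq_add_smul (S : Finset Bnd) (B B' : Bnd → ℝ) (x : ℝ) :
    ∑ e ∈ S, (B e + x * B' e) ^ 2 =
      ∑ e ∈ S, B e ^ 2 + 2 * x * ∑ e ∈ S, B e * B' e + x ^ 2 * ∑ e ∈ S, B' e ^ 2 := by
  rw [Finset.mul_sum, Finset.mul_sum, ← Finset.sum_add_distrib, ← Finset.sum_add_distrib]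
  exact Finset.sum_congr rfl fun u _ => by ring

/-- the defect of the variance of `B` in the bound with the constants `Y`, `C`, `l` -/
noncomputable def Df (b Y C : ℝ) (l : ℕ) (U : Finset Z2) (S : Finset Bnd) (B : Bnd → ℝ) : ℝ :=
  Y * ∑ e ∈ S, B e ^ 2 + C * osc l S B - Vr b U B

/-- **the defect form is positive semidefinite**: Cauchy-Schwarz -/
theorem Df_cs {b Y C : ℝ} (hb : 0 ≤ b) {l : ℕ} {U : Finset Z2} {S : Finset Bnd}
    (H : ∀ B : Bnd → ℝ, (∀ e, e ∉ S → B e = 0) →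
      Vr b U B ≤ Y * ∑ e ∈ S, B e ^ 2 + C * osc l S B)
    {B B' : Bnd → ℝ} (hB : ∀ e, e ∉ S → B e = 0) (hB' : ∀ e, e ∉ S → B' e = 0) :
    (Y * ∑ e ∈ S, B e * B' e + C * osb l S B B' - Cv b U B B') ^ 2 ≤
      Df b Y C l U S B * Df b Y C l U S B' :=
  disc fun x => by
    have h1 := H (fun e => B e + x * B' e) fun e he => by rw [hB e he, hB' e he]; ring
    rw [sq_add_smul, osc_add_smul, Vr_add_smul hb] at h1
    unfold Df
    nlinarith

lemma Df_nonneg {b Y C : ℝ} {l : ℕ} {U : Finset Z2} {S : Finset Bnd}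
    (H : ∀ B : Bnd → ℝ, (∀ e, e ∉ S → B e = 0) →
      Vr b U B ≤ Y * ∑ e ∈ S, B e ^ 2 + C * osc l S B)
    {B : Bnd → ℝ} (hB : ∀ e, e ∉ S → B e = 0) : 0 ≤ Df b Y C l U S B := by
  unfold Df
  linarith [H B hB]

lemma le_sqrt_mul {x A D : ℝ} (hA : 0 ≤ A) (h : x ^ 2 ≤ A * D) :
    |x| ≤ Real.sqrt A * Real.sqrt D := by
  rw [← Real.sqrt_mul hA, ← Real.sqrt_sq_eq_abs]
  exact Real.sqrt_le_sqrt h

/-- **Lower bound for the covariance.** `δ` is the defect of `B'` in the lower bound for its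
variance. -/
theorem Cv_ge {b Y C : ℝ} (hb : 0 ≤ b) (hC : 0 ≤ C) {l : ℕ} {U : Finset Z2} {S : Finset Bnd}
    (H : ∀ B : Bnd → ℝ, (∀ e, e ∉ S → B e = 0) →
      Vr b U B ≤ Y * ∑ e ∈ S, B e ^ 2 + C * osc l S B)
    {B B' : Bnd → ℝ} (hB : ∀ e, e ∉ S → B e = 0) (hB' : ∀ e, e ∉ S → B' e = 0) {δ : ℝ}
    (hδ : Y * ∑ e ∈ S, B' e ^ 2 - δ ≤ Vr b U B') :
    Y * ∑ e ∈ S, B e * B' e - C * (Real.sqrt (osc l S B) * Real.sqrt (osc l S B')) -
        Real.sqrt (Y * ∑ e ∈ S, B e ^ 2 + C * osc l S B) * Real.sqrt (C * osc l S B' + δ) ≤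
      Cv b U B B' := by
  have h1 := le_sqrt_mul (Df_nonneg H hB) (Df_cs hb H hB hB')
  have h2 := le_sqrt_mul (osc_nonneg l S B) (osb_sq_le l S B B')
  have h3 : Real.sqrt (Df b Y C l U S B) ≤
      Real.sqrt (Y * ∑ e ∈ S, B e ^ 2 + C * osc l S B) := by
    refine Real.sqrt_le_sqrt ?_
    unfold Df
    linarith [Vr_nonneg hb U B]
  have h4 : Real.sqrt (Df b Y C l U S B') ≤ Real.sqrt (C * osc l S B' + δ) := by
    refine Real.sqrt_le_sqrt ?_
    unfold Df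
    linarith
  have h5 := mul_le_mul h3 h4 (Real.sqrt_nonneg _) (Real.sqrt_nonneg _)
  have h6 := (abs_le.1 h1).2
  have h7 := mul_le_mul_of_nonneg_left (abs_le.1 h2).1 hC
  linarith

/-- variance from a covariance -/
theorem Vr_ge {b : ℝ} (hb : 0 ≤ b) {U : Finset Z2} {B B' : Bnd → ℝ} {K M : ℝ} (hK : 0 ≤ K)
    (hM : 0 < M) (h1 : K ≤ Cv b U B B') (h2 : Vr b U B' ≤ M) : K ^ 2 / M ≤ Vr b U B := by
  rw [div_le_iff₀ hM]
  have h3 := Cv_sq_le hb U B B'
  have h4 : K ^ 2 ≤ Cv b U B B' ^ 2 := pow_le_pow_left₀ hK h1 2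
  exact (h4.trans h3).trans (mul_le_mul_of_nonneg_left h2 (Vr_nonneg hb U B))

end Vale.Agent.P159.T1.D.H469
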