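import Vale.Agent.P159.T1.D.H469.UV

/-!
Triangle inequalities for the square roots of the variance and of the defect form.
-/

open Filter Topology

namespace Vale.Agent.P159.T1.D.H469

open Vale.Agent.P159 Vale.Agent.P159.H353 Vale.Agent.P159.T1.D

lemma sqrt_add_le' {A K D X : ℝ} (hA : 0 ≤ A) (hD : 0 ≤ D) (hX : X = A + 2 * K + D)
    (hK : K ^ 2 ≤ A * D) : Real.sqrt X ≤ Real.sqrt A + Real.sqrt D := by
  have h1 : K ≤ Real.sqrt A * Real.sqrt D := (le_abs_self K).trans (le_sqrt_mul hA hK)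
  have h2 := Real.sqrt_nonneg A
  have h3 := Real.sqrt_nonneg D
  rw [Real.sqrt_le_left (by positivity), hX]
  nlinarith [Real.sq_sqrt hA, Real.sq_sqrt hD]

/-! ### the variance -/

/-- **triangle inequality** -/
theorem sqrt_Vr_add {b : ℝ} (hb : 0 ≤ b) (U : Finset Z2) (B B' : Bnd → ℝ) :
    Real.sqrt (Vr b U fun e => B e + B' e) ≤ Real.sqrt (Vr b U B) + Real.sqrt (Vr b U B') :=
  sqrt_add_le' (Vr_nonneg hb U B) (Vr_nonneg hb U B') (Vr_add hb U B B') (Cv_sq_le hb U B B')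

lemma Vr_neg (b : ℝ) (U : Finset Z2) (B : Bnd → ℝ) : Vr b U (fun e => -B e) = Vr b U B := by
  have h1 := Vr_smul b U (-1) B
  simp only [neg_one_mul] at h1
  rw [h1]
  ring

lemma Vr_zero (b : ℝ) (U : Finset Z2) : Vr b U (fun _ => 0) = 0 := by
  have h1 := Vr_smul b U 0 fun _ => 0
  simp only [mul_zero] at h1
  rw [h1]
  ring

/-- `√Vr B ≤ √Vr B' + √Vr (B - B')` -/
theorem sqrt_Vr_le {b : ℝ} (hb : 0 ≤ b) (U : Finset Z2) (B B' : Bnd → ℝ) :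
    Real.sqrt (Vr b U B) ≤ Real.sqrt (Vr b U B') + Real.sqrt (Vr b U fun e => B e - B' e) := by
  have h1 := sqrt_Vr_add hb U B' fun e => B e - B' e
  simp only [add_sub_cancel] at h1
  exact h1

/-- `√Vr B' - √Vr (B - B') ≤ √Vr B` -/
theorem sqrt_Vr_ge {b : ℝ} (hb : 0 ≤ b) (U : Finset Z2) (B B' : Bnd → ℝ) :
    Real.sqrt (Vr b U B') - Real.sqrt (Vr b U fun e => B e - B' e) ≤ Real.sqrt (Vr b U B) := by
  have h1 := sqrt_Vr_le hb U B' B
  have h2 : (Vr b U fun e => B' e - B e) = Vr b U fun e => B e - B' e := by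
    rw [← Vr_neg b U fun e => B' e - B e]
    simp only [neg_sub]
  rw [h2] at h1
  linarith

theorem sqrt_Vr_sum {b : ℝ} (hb : 0 ≤ b) (U : Finset Z2) {ι : Type*} (I : Finset ι)
    (B : ι → Bnd → ℝ) :
    Real.sqrt (Vr b U fun e => ∑ i ∈ I, B i e) ≤ ∑ i ∈ I, Real.sqrt (Vr b U (B i)) := by
  classical
  induction I using Finset.induction_on with
  | empty => simp [Vr_zero]
  | @insert a s ha ih =>
    simp only [Finset.sum_insert ha]
    exact (sqrt_Vr_add hb U (B a) fun e => ∑ i ∈ s, B i e).trans (by linarith)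

theorem Vr_sum_le {b : ℝ} (hb : 0 ≤ b) (U : Finset Z2) {ι : Type*} (I : Finset ι)
    (B : ι → Bnd → ℝ) :
    (Vr b U fun e => ∑ i ∈ I, B i e) ≤ (I.card : ℝ) * ∑ i ∈ I, Vr b U (B i) := by
  have h1 := sqrt_Vr_sum hb U I B
  have h2 := sq_sum_le_card_mul_sum_sq (s := I) (f := fun i => Real.sqrt (Vr b U (B i)))
  simp only [Real.sq_sqrt (Vr_nonneg hb U (B _))] at h2
  refine le_trans ?_ h2
  rw [← Real.sq_sqrt (Vr_nonneg hb U fun e => ∑ i ∈ I, B i e)]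
  exact pow_le_pow_left₀ (Real.sqrt_nonneg _) h1 2

/-! ### the upper form -/

/-- the upper form -/
noncomputable def Nf (Y C : ℝ) (l : ℕ) (S : Finset Bnd) (B : Bnd → ℝ) : ℝ :=
  Y * ∑ e ∈ S, B e ^ 2 + C * osc l S B

/-- its polar form -/
noncomputable def Nb (Y C : ℝ) (l : ℕ) (S : Finset Bnd) (B B' : Bnd → ℝ) : ℝ :=
  Y * ∑ e ∈ S, B e * B' e + C * osb l S B B'

section nf

variable {Y C : ℝ} {l : ℕ} {S : Finset Bnd}

lemma Nf_add_smul (B B' : Bnd → ℝ) (x : ℝ) : Nf Y C l S (fun e => B e + x * B' e) =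
    Nf Y C l S B + 2 * x * Nb Y C l S B B' + x ^ 2 * Nf Y C l S B' := by
  unfold Nf Nb
  rw [sq_add_smul, osc_add_smul]
  ring

lemma Nf_add (B B' : Bnd → ℝ) : Nf Y C l S (fun e => B e + B' e) =
    Nf Y C l S B + 2 * Nb Y C l S B B' + Nf Y C l S B' := by
  have h1 := Nf_add_smul (Y := Y) (C := C) (l := l) (S := S) B B' 1
  simp only [one_mul] at h1
  rw [h1]
  ring

lemma Nf_nonneg (hY : 0 ≤ Y) (hC : 0 ≤ C) (B : Bnd → ℝ) : 0 ≤ Nf Y C l S B :=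
  add_nonneg (mul_nonneg hY (Finset.sum_nonneg fun _ _ => sq_nonneg _))
    (mul_nonneg hC (osc_nonneg l S B))

lemma Nb_sq_le (hY : 0 ≤ Y) (hC : 0 ≤ C) (B B' : Bnd → ℝ) :
    Nb Y C l S B B' ^ 2 ≤ Nf Y C l S B * Nf Y C l S B' :=
  disc fun x => by
    rw [← Nf_add_smul]
    exact Nf_nonneg hY hC _

lemma Nf_smul (c : ℝ) (B : Bnd → ℝ) :
    Nf Y C l S (fun e => c * B e) = c ^ 2 * Nf Y C l S B := by
  unfold Nf
  rw [osc_smul]
  have : ∑ e ∈ S, (c * B e) ^ 2 = c ^ 2 * ∑ e ∈ S, B e ^ 2 := by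
    rw [Finset.mul_sum]
    exact Finset.sum_congr rfl fun e _ => by ring
  rw [this]
  ring

theorem sqrt_Nf_add (hY : 0 ≤ Y) (hC : 0 ≤ C) (B B' : Bnd → ℝ) :
    Real.sqrt (Nf Y C l S fun e => B e + B' e) ≤
      Real.sqrt (Nf Y C l S B) + Real.sqrt (Nf Y C l S B') :=
  sqrt_add_le' (Nf_nonneg hY hC B) (Nf_nonneg hY hC B') (Nf_add B B') (Nb_sq_le hY hC B B')

end nf

/-! ### the defect form -/

section df

variable {b Y C : ℝ} {l : ℕ} {U : Finset Z2} {S : Finset Bnd}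

lemma Df_eq (B : Bnd → ℝ) : Df b Y C l U S B = Nf Y C l S B - Vr b U B := rfl

lemma Df_le (hb : 0 ≤ b) (B : Bnd → ℝ) : Df b Y C l U S B ≤ Nf Y C l S B := by
  rw [Df_eq]
  linarith [Vr_nonneg hb U B]

lemma Df_add_smul (hb : 0 ≤ b) (B B' : Bnd → ℝ) (x : ℝ) :
    Df b Y C l U S (fun e => B e + x * B' e) = Df b Y C l U S B +
      2 * x * (Nb Y C l S B B' - Cv b U B B') + x ^ 2 * Df b Y C l U S B' := by
  rw [Df_eq, Df_eq, Df_eq, Nf_add_smul, Vr_add_smul hb]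
  ring

lemma Df_add (hb : 0 ≤ b) (B B' : Bnd → ℝ) :
    Df b Y C l U S (fun e => B e + B' e) = Df b Y C l U S B +
      2 * (Nb Y C l S B B' - Cv b U B B') + Df b Y C l U S B' := by
  rw [Df_eq, Df_eq, Df_eq, Nf_add, Vr_add hb]
  ring

lemma Df_neg (B : Bnd → ℝ) : Df b Y C l U S (fun e => -B e) = Df b Y C l U S B := by
  rw [Df_eq, Df_eq, Vr_neg]
  have h1 := Nf_smul (Y := Y) (C := C) (l := l) (S := S) (-1) B
  simp only [neg_one_mul] at h1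
  rw [h1]
  ring

lemma Df_zero : Df b Y C l U S (fun _ => 0) = 0 := by
  rw [Df_eq, Vr_zero]
  have h1 := Nf_smul (Y := Y) (C := C) (l := l) (S := S) 0 fun _ => 0
  simp only [mul_zero] at h1
  rw [h1]
  ring

variable (H : ∀ B : Bnd → ℝ, (∀ e, e ∉ S → B e = 0) →
  Vr b U B ≤ Y * ∑ e ∈ S, B e ^ 2 + C * osc l S B)

include H

/-- **triangle inequality for the defect form** -/
theorem sqrt_Df_add (hb : 0 ≤ b) {B B' : Bnd → ℝ} (hB : ∀ e, e ∉ S → B e = 0)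
    (hB' : ∀ e, e ∉ S → B' e = 0) :
    Real.sqrt (Df b Y C l U S fun e => B e + B' e) ≤
      Real.sqrt (Df b Y C l U S B) + Real.sqrt (Df b Y C l U S B') :=
  sqrt_add_le' (Df_nonneg H hB) (Df_nonneg H hB') (Df_add hb B B') (Df_cs hb H hB hB')

theorem sqrt_Df_le (hb : 0 ≤ b) {B B' : Bnd → ℝ} (hB : ∀ e, e ∉ S → B e = 0)
    (hB' : ∀ e, e ∉ S → B' e = 0) :
    Real.sqrt (Df b Y C l U S B) ≤
      Real.sqrt (Df b Y C l U S B') + Real.sqrt (Df b Y C l U S fun e => B e - B' e) := by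
  have h1 := sqrt_Df_add H hb hB' (B' := fun e => B e - B' e)
    fun e he => by rw [hB e he, hB' e he, sub_zero]
  simp only [add_sub_cancel] at h1
  exact h1

theorem sqrt_Df_sum (hb : 0 ≤ b) {ι : Type*} (I : Finset ι) {B : ι → Bnd → ℝ}
    (hB : ∀ i ∈ I, ∀ e, e ∉ S → B i e = 0) :
    Real.sqrt (Df b Y C l U S fun e => ∑ i ∈ I, B i e) ≤
      ∑ i ∈ I, Real.sqrt (Df b Y C l U S (B i)) := by
  classical
  induction I using Finset.induction_on with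
  | empty => simp [Df_zero]
  | @insert a s ha ih =>
    simp only [Finset.sum_insert ha]
    have h1 := ih fun i hi => hB i (Finset.mem_insert_of_mem hi)
    have h2 := sqrt_Df_add H hb (hB a (Finset.mem_insert_self a s))
      (B' := fun e => ∑ i ∈ s, B i e)
      fun e he => Finset.sum_eq_zero fun i hi => hB i (Finset.mem_insert_of_mem hi) e he
    exact h2.trans (by linarith)

/-- `N(∑ Bᵢ) - Vr(∑ Bᵢ) ≤ m ∑ (N(Bᵢ) - Vr(Bᵢ))` -/
theorem Df_sum_le (hb : 0 ≤ b) {ι : Type*} (I : Finset ι) {B : ι → Bnd → ℝ}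
    (hB : ∀ i ∈ I, ∀ e, e ∉ S → B i e = 0) :
    (Df b Y C l U S fun e => ∑ i ∈ I, B i e) ≤
      (I.card : ℝ) * ∑ i ∈ I, Df b Y C l U S (B i) := by
  have h1 := sqrt_Df_sum H hb I hB
  have h2 := sq_sum_le_card_mul_sum_sq (s := I) (f := fun i => Real.sqrt (Df b Y C l U S (B i)))
  have h3 : ∑ i ∈ I, Real.sqrt (Df b Y C l U S (B i)) ^ 2 = ∑ i ∈ I, Df b Y C l U S (B i) :=
    Finset.sum_congr rfl fun i hi => Real.sq_sqrt (Df_nonneg H (hB i hi))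
  rw [h3] at h2
  refine le_trans ?_ h2
  have h0 : 0 ≤ Df b Y C l U S fun e => ∑ i ∈ I, B i e :=
    Df_nonneg H fun e he => Finset.sum_eq_zero fun i hi => hB i hi e he
  rw [← Real.sq_sqrt h0]
  exact pow_le_pow_left₀ (Real.sqrt_nonneg _) h1 2

/-- **Lower bound for the variance.** `B'` is a field with defect at most `δ`:
`N(B) - (√N(B - B') + √δ)² ≤ Vr B`. -/
theorem Vr_ge_tri (hb : 0 ≤ b) {B B' : Bnd → ℝ} (hB : ∀ e, e ∉ S → B e = 0)
    (hB' : ∀ e, e ∉ S → B' e = 0) {δ : ℝ} (hδ : Df b Y C l U S B' ≤ δ) :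
    Nf Y C l S B - (Real.sqrt (Nf Y C l S fun e => B e - B' e) + Real.sqrt δ) ^ 2 ≤
      Vr b U B := by
  have h1 := sqrt_Df_le H hb hB hB'
  have h2 : Real.sqrt (Df b Y C l U S fun e => B e - B' e) ≤
      Real.sqrt (Nf Y C l S fun e => B e - B' e) := Real.sqrt_le_sqrt (Df_le hb _)
  have h3 := Real.sqrt_le_sqrt hδ
  have h4 : Real.sqrt (Df b Y C l U S B) ≤
      Real.sqrt (Nf Y C l S fun e => B e - B' e) + Real.sqrt δ := by linarith
  have h5 := pow_le_pow_left₀ (Real.sqrt_nonneg _) h4 2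
  rw [Real.sq_sqrt (Df_nonneg H hB), Df_eq] at h5
  linarith

/-- the same with a finite family of test fields: `δ i` bounds the defect of `B' i` -/
theorem Vr_ge_sum (hb : 0 ≤ b) {B : Bnd → ℝ} {ι : Type*} (I : Finset ι) {B' : ι → Bnd → ℝ}
    (hB : ∀ e, e ∉ S → B e = 0) (hB' : ∀ i ∈ I, ∀ e, e ∉ S → B' i e = 0) {δ : ι → ℝ}
    (hδ : ∀ i ∈ I, Df b Y C l U S (B' i) ≤ δ i) :
    Nf Y C l S B - (Real.sqrt (Nf Y C l S fun e => B e - ∑ i ∈ I, B' i e) +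
      ∑ i ∈ I, Real.sqrt (δ i)) ^ 2 ≤ Vr b U B := by
  have h0 : 0 ≤ ∑ i ∈ I, Real.sqrt (δ i) := Finset.sum_nonneg fun _ _ => Real.sqrt_nonneg _
  have h1 : (Df b Y C l U S fun e => ∑ i ∈ I, B' i e) ≤ (∑ i ∈ I, Real.sqrt (δ i)) ^ 2 := by
    have hn : 0 ≤ Df b Y C l U S fun e => ∑ i ∈ I, B' i e :=
      Df_nonneg H fun e he => Finset.sum_eq_zero fun i hi => hB' i hi e he
    rw [← Real.sq_sqrt hn]
    refine pow_le_pow_left₀ (Real.sqrt_nonneg _) ((sqrt_Df_sum H hb I hB').trans ?_) 2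
    exact Finset.sum_le_sum fun i hi => Real.sqrt_le_sqrt (hδ i hi)
  have h2 := Vr_ge_tri H hb hB
    (B' := fun e => ∑ i ∈ I, B' i e)
    (fun e he => Finset.sum_eq_zero fun i hi => hB' i hi e he) h1
  rwa [Real.sqrt_sq h0] at h2

end df

/-- **N(∑ Bᵢ) - m ∑ δᵢ ≤ Vr(∑ Bᵢ)** when the defect of `B i` is at most `δ i` -/
theorem Vr_sum_ge {b Y C : ℝ} {l : ℕ} {U : Finset Z2} {S : Finset Bnd}
    (H : ∀ B : Bnd → ℝ, (∀ e, e ∉ S → B e = 0) →
      Vr b U B ≤ Y * ∑ e ∈ S, B e ^ 2 + C * osc l S B)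
    (hb : 0 ≤ b) {ι : Type*} (I : Finset ι) {B : ι → Bnd → ℝ}
    (hB : ∀ i ∈ I, ∀ e, e ∉ S → B i e = 0) {δ : ι → ℝ}
    (hδ : ∀ i ∈ I, Df b Y C l U S (B i) ≤ δ i) :
    (Nf Y C l S fun e => ∑ i ∈ I, B i e) - (I.card : ℝ) * ∑ i ∈ I, δ i ≤
      Vr b U fun e => ∑ i ∈ I, B i e := by
  have h1 := Df_sum_le H hb I hB
  have h2 : (I.card : ℝ) * ∑ i ∈ I, Df b Y C l U S (B i) ≤ (I.card : ℝ) * ∑ i ∈ I, δ i :=
    mul_le_mul_of_nonneg_left (Finset.sum_le_sum hδ) (Nat.cast_nonneg _)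
  rw [Df_eq] at h1
  linarith

end Vale.Agent.P159.T1.D.H469
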