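import Vale.Agent.P159.T1.H910.DKit

/-!
Summability and means for the heights of `Vale.Agent.P159.T1.D`; the covariance form.
-/

open Filter Topology

namespace Vale.Agent.P159.T1.D.H469

open Vale.Agent.P159.H353 Vale.Agent.P159.T1.D Vale.Agent.P159.T1.H934

/-! ### the gradient determines the heights -/

/-- induction to the left until `U` is left -/
lemma left_ind (U : Finset Z2) {P : Z2 → Prop} (h0 : ∀ f, f ∉ U → P f)
    (h1 : ∀ f, f ∈ U → P (f.1 - 1, f.2) → P f) (f : Z2) : P f := by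
  obtain ⟨m, hm⟩ : ∃ m : ℤ, ∀ g ∈ U, m ≤ g.1 := by
    rcases U.eq_empty_or_nonempty with h | h
    · exact ⟨0, by simp [h]⟩
    · obtain ⟨g, _, hg⟩ := U.exists_min_image (fun g => g.1) h
      exact ⟨g.1, hg⟩
  have key : ∀ n : ℕ, ∀ g : Z2, g.1 - n < m → P g := by
    intro n
    induction n with
    | zero =>
      intro g hg
      refine h0 g fun h => ?_
      have := hm g h
      simp only [Nat.cast_zero, sub_zero] at hg
      omega
    | succ n ih =>
      intro g hg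
      by_cases h : g ∈ U
      · refine h1 g h (ih _ ?_)
        show g.1 - 1 - (n : ℤ) < m
        push_cast at hg
        omega
      · exact h0 g h
  refine key (f.1 - m + 1).toNat f ?_
  have := Int.self_le_toNat (f.1 - m + 1)
  omega

lemma eq_of_dh {U : Finset Z2} {h h' : Ht U} (H : ∀ e ∈ bd U, dh h.1 e = dh h'.1 e) : h = h' := by
  refine Subtype.ext (funext fun f => ?_)
  refine left_ind U (P := fun f => h.1 f = h'.1 f) (fun f hf => ?_) (fun f hf ih => ?_) f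
  · rw [h.2 f hf, h'.2 f hf]
  · have h1 := H (f, true) (H910.mem_bd.2 (Or.inl (by simpa [rt] using hf)))
    simp only [dh, lf, rt, if_true] at h1
    have ih' : h.1 (f.1 - 1, f.2) = h'.1 (f.1 - 1, f.2) := ih
    omega

/-! ### summability -/

/-- the gradient in the sector `m` on the bonds of `U` -/
def dm (U : Finset Z2) (m : Bnd → ℤ) (h : Ht U) (e : {e : Bnd // e ∈ bd U}) : ℤ :=
  dh h.1 e.1 + m e.1

lemma dm_inj (U : Finset Z2) (m : Bnd → ℤ) : Function.Injective (dm U m) := by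
  intro h h' H
  refine eq_of_dh fun e he => ?_
  have := congrFun H ⟨e, he⟩
  simp only [dm] at this
  omega

lemma wt_dm (b : ℝ) (U : Finset Z2) (m : Bnd → ℤ) (h : Ht U) :
    wt b U m h.1 = W (dm U m) (fun _ => b) h := by
  unfold W wt
  rw [← Finset.prod_coe_sort]
  rfl

lemma wt_nonneg {b : ℝ} (hb : 0 ≤ b) (U : Finset Z2) (m : Bnd → ℤ) (h : Z2 → ℤ) :
    0 ≤ wt b U m h := Finset.prod_nonneg fun _ _ => wI_nonneg hb _

lemma exp_pr_le (U : Finset Z2) (m : Bnd → ℤ) (B : Bnd → ℝ) (h : Ht U) :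
    Real.exp |pr U B m h.1| ≤ gw (Real.exp (∑ e ∈ bd U, |B e|)) (dm U m h) := by
  set β : ℝ := ∑ e ∈ bd U, |B e| with hβ
  have h1 : |pr U B m h.1| ≤ ∑ e : {e : Bnd // e ∈ bd U}, β * ((dm U m h e).natAbs : ℝ) := by
    unfold pr
    refine (Finset.abs_sum_le_sum_abs _ _).trans ?_
    rw [← Finset.sum_coe_sort]
    refine Finset.sum_le_sum fun e _ => ?_
    rw [abs_mul]
    have e1 : |((dh h.1 e.1 + m e.1 : ℤ) : ℝ)| = ((dm U m h e).natAbs : ℝ) := by
      rw [Nat.cast_natAbs, Int.cast_abs]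
      rfl
    rw [e1]
    exact mul_le_mul_of_nonneg_right (Finset.single_le_sum (f := fun e => |B e|)
      (fun _ _ => abs_nonneg _) e.2) (Nat.cast_nonneg _)
  refine (Real.exp_le_exp.2 h1).trans (le_of_eq ?_)
  unfold gw
  rw [Real.exp_sum]
  refine Finset.prod_congr rfl fun e _ => ?_
  rw [← Real.exp_nat_mul, mul_comm]

/-- **functions of exponential growth are summable, in every sector** -/
theorem summable_wt {b : ℝ} (hb : 0 ≤ b) (U : Finset Z2) (m : Bnd → ℤ) (B : Bnd → ℝ)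
    {F : (Z2 → ℤ) → ℝ} {C : ℝ} (hF : ∀ h : Ht U, |F h.1| ≤ C * Real.exp |pr U B m h.1|) :
    Summable fun h : Ht U => wt b U m h.1 * F h.1 := by
  have hρ : 1 ≤ Real.exp (∑ e ∈ bd U, |B e|) :=
    Real.one_le_exp (Finset.sum_nonneg fun _ _ => abs_nonneg _)
  have h1 := (W_summable_w (dm_inj U m) (J := fun _ => b) (fun _ => hb) hρ).mul_left (max C 0)
  refine Summable.of_norm_bounded h1 fun h => ?_
  rw [Real.norm_eq_abs, abs_mul, abs_of_nonneg (wt_nonneg hb U m h.1), ← wt_dm, mul_left_comm]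
  refine mul_le_mul_of_nonneg_left ((hF h).trans ?_) (wt_nonneg hb U m h.1)
  exact mul_le_mul (le_max_left _ _) (exp_pr_le U m B h) (Real.exp_pos _).le (le_max_right _ _)

lemma summable_one {b : ℝ} (hb : 0 ≤ b) (U : Finset Z2) (m : Bnd → ℤ) :
    Summable fun h : Ht U => wt b U m h.1 := by
  refine (summable_wt hb U m 0 (F := fun _ => 1) (C := 1) fun h => ?_).congr fun h => mul_one _
  rw [abs_one, one_mul]
  exact Real.one_le_exp (abs_nonneg _)

lemma summable_exp {b : ℝ} (hb : 0 ≤ b) (U : Finset Z2) (m : Bnd → ℤ) (B : Bnd → ℝ) :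
    Summable fun h : Ht U => wt b U m h.1 * Real.exp (pr U B m h.1) :=
  summable_wt hb U m B (F := fun h => Real.exp (pr U B m h)) (C := 1) fun h => by
    rw [abs_of_pos (Real.exp_pos _), one_mul]
    exact Real.exp_le_exp.2 (le_abs_self _)

lemma summable_sq {b : ℝ} (hb : 0 ≤ b) (U : Finset Z2) (m : Bnd → ℤ) (B : Bnd → ℝ) :
    Summable fun h : Ht U => wt b U m h.1 * pr U B m h.1 ^ 2 :=
  summable_wt hb U m B (F := fun h => pr U B m h ^ 2) (C := 2) fun h => by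
    rw [abs_of_nonneg (sq_nonneg _), ← sq_abs]
    have h1 := Real.quadratic_le_exp_of_nonneg (abs_nonneg (pr U B m h.1))
    nlinarith [abs_nonneg (pr U B m h.1)]

lemma summable_lin {b : ℝ} (hb : 0 ≤ b) (U : Finset Z2) (m : Bnd → ℤ) (B : Bnd → ℝ) :
    Summable fun h : Ht U => wt b U m h.1 * pr U B m h.1 :=
  summable_wt hb U m B (F := fun h => pr U B m h) (C := 1) fun h => by
    rw [one_mul]
    have h1 := Real.add_one_le_exp |pr U B m h.1|
    linarith

lemma summable_mul {b : ℝ} (hb : 0 ≤ b) (U : Finset Z2) (m : Bnd → ℤ) (B B' : Bnd → ℝ) :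
    Summable fun h : Ht U => wt b U m h.1 * (pr U B m h.1 * pr U B' m h.1) := by
  refine Summable.of_norm_bounded ((summable_sq hb U m B).add (summable_sq hb U m B')) fun h => ?_
  rw [Real.norm_eq_abs, abs_mul, abs_of_nonneg (wt_nonneg hb U m h.1), ← mul_add]
  refine mul_le_mul_of_nonneg_left ?_ (wt_nonneg hb U m h.1)
  rw [abs_le]
  constructor <;> nlinarith [sq_nonneg (pr U B m h.1 + pr U B' m h.1),
    sq_nonneg (pr U B m h.1 - pr U B' m h.1), sq_nonneg (pr U B m h.1),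
    sq_nonneg (pr U B' m h.1)]

lemma Z_pos {b : ℝ} (hb : 0 ≤ b) (U : Finset Z2) : 0 < Z b U := by
  have h1 := (summable_one hb U 0).le_tsum (⟨0, fun _ _ => rfl⟩ : Ht U)
    fun h _ => wt_nonneg hb U 0 h.1
  refine lt_of_lt_of_le ?_ h1
  unfold wt
  refine Finset.prod_pos fun e _ => ?_
  have : dh (0 : Z2 → ℤ) e + (0 : Bnd → ℤ) e = 0 := by simp [dh]
  simp only
  rw [this]
  exact wI_zero_pos hb

lemma ZB_nonneg {b : ℝ} (hb : 0 ≤ b) (U : Finset Z2) (m : Bnd → ℤ) (B : Bnd → ℝ) :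
    0 ≤ ZB b U m B :=
  tsum_nonneg fun h => mul_nonneg (wt_nonneg hb U m h.1) (Real.exp_pos _).le

/-- the pairing in the sector `m` -/
lemma pr_sector (U : Finset Z2) (B : Bnd → ℝ) (m : Bnd → ℤ) (h : Z2 → ℤ) :
    pr U B m h = pr U B 0 h + ∑ e ∈ bd U, B e * (m e : ℝ) := by
  unfold pr
  rw [← Finset.sum_add_distrib]
  refine Finset.sum_congr rfl fun e _ => ?_
  rw [Pi.zero_apply, add_zero]
  push_cast
  ring

/-- charges and fields in a sector -/
theorem ZB_eq {U : Finset Z2} {B : Bnd → ℝ} {ρ : Z2 → ℝ} (hd : IsDiv U B ρ) (b : ℝ)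
    (m : Bnd → ℤ) : ZB b U m B = Real.exp (∑ e ∈ bd U, B e * (m e : ℝ)) *
      ∑' h : Ht U, wt b U m h.1 * Real.exp (ch U ρ h.1) := by
  unfold ZB
  rw [← tsum_mul_left]
  refine tsum_congr fun h => ?_
  rw [pr_sector, H910.pr_isDiv hd, Real.exp_add]
  ring

theorem Zs_eq_ZB {U : Finset Z2} {B : Bnd → ℝ} {ρ : Z2 → ℝ} (hd : IsDiv U B ρ) (b : ℝ) (k : ℤ) :
    Zs b U k ρ = Real.exp (-∑ e ∈ bd U, B e * (sec U k e : ℝ)) * ZB b U (sec U k) B := by
  rw [ZB_eq hd, ← mul_assoc, ← Real.exp_add, neg_add_cancel, Real.exp_zero, one_mul]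
  rfl

lemma summable_ch {b : ℝ} (hb : 0 ≤ b) (U : Finset Z2) (m : Bnd → ℤ) {B : Bnd → ℝ} {ρ : Z2 → ℝ}
    (hd : IsDiv U B ρ) : Summable fun h : Ht U => wt b U m h.1 * Real.exp (ch U ρ h.1) := by
  have h1 := (summable_exp hb U m B).mul_left (Real.exp (-∑ e ∈ bd U, B e * (m e : ℝ)))
  refine h1.congr fun h => ?_
  rw [pr_sector, H910.pr_isDiv hd, Real.exp_add, Real.exp_neg]
  field_simp

/-! ### every charge has a field -/

/-- the field which carries the charges to the left -/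
noncomputable def lft (U : Finset Z2) (ρ : Z2 → ℝ) (e : Bnd) : ℝ :=
  if e.2 then -∑ f ∈ U.filter (fun f => e.1.1 ≤ f.1 ∧ f.2 = e.1.2), ρ f else 0

lemma isDiv_lft (U : Finset Z2) (ρ : Z2 → ℝ) : IsDiv U (lft U ρ) ρ := by
  intro f hf
  unfold lft
  simp only [Bool.false_eq_true, if_false, if_true, sub_zero, zero_add]
  have h1 : (U.filter fun g => f.1 ≤ g.1 ∧ g.2 = f.2) =
      insert f (U.filter fun g => f.1 + 1 ≤ g.1 ∧ g.2 = f.2) := by
    ext g
    simp only [Finset.mem_filter, Finset.mem_insert]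
    constructor
    · rintro ⟨h1, h2, h3⟩
      rcases eq_or_lt_of_le h2 with h4 | h4
      · left
        exact Prod.ext h4.symm h3
      · right
        exact ⟨h1, by omega, h3⟩
    · rintro (rfl | ⟨h1, h2, h3⟩)
      · exact ⟨hf, le_rfl, rfl⟩
      · exact ⟨h1, by omega, h3⟩
  rw [h1, Finset.sum_insert (by simp)]
  ring

lemma summable_ch' {b : ℝ} (hb : 0 ≤ b) (U : Finset Z2) (m : Bnd → ℤ) (ρ : Z2 → ℝ) :
    Summable fun h : Ht U => wt b U m h.1 * Real.exp (ch U ρ h.1) :=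
  summable_ch hb U m (isDiv_lft U ρ)

lemma Zρ_pos {b : ℝ} (hb : 0 ≤ b) (U : Finset Z2) (ρ : Z2 → ℝ) : 0 < Zρ b U ρ := by
  have h1 := (summable_ch' hb U 0 ρ).le_tsum (⟨0, fun _ _ => rfl⟩ : Ht U)
    fun h _ => mul_nonneg (wt_nonneg hb U 0 h.1) (Real.exp_pos _).le
  refine lt_of_lt_of_le ?_ h1
  refine mul_pos ?_ (Real.exp_pos _)
  unfold wt
  refine Finset.prod_pos fun e _ => ?_
  have : dh (0 : Z2 → ℤ) e + (0 : Bnd → ℤ) e = 0 := by simp [dh]
  simp only
  rw [this]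
  exact wI_zero_pos hb

/-! ### linearity of the pairing -/

lemma pr_add (U : Finset Z2) (B B' : Bnd → ℝ) (m : Bnd → ℤ) (h : Z2 → ℤ) :
    pr U (fun e => B e + B' e) m h = pr U B m h + pr U B' m h := by
  unfold pr
  rw [← Finset.sum_add_distrib]
  exact Finset.sum_congr rfl fun e _ => by ring

lemma pr_smul (U : Finset Z2) (c : ℝ) (B : Bnd → ℝ) (m : Bnd → ℤ) (h : Z2 → ℤ) :
    pr U (fun e => c * B e) m h = c * pr U B m h := by
  unfold pr
  rw [Finset.mul_sum]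
  exact Finset.sum_congr rfl fun e _ => by ring

lemma pr_neg_h (U : Finset Z2) (B : Bnd → ℝ) (h : Z2 → ℤ) : pr U B 0 (-h) = -pr U B 0 h := by
  unfold pr
  rw [← Finset.sum_neg_distrib]
  refine Finset.sum_congr rfl fun e _ => ?_
  simp only [dh, Pi.neg_apply, Pi.zero_apply, add_zero]
  push_cast
  ring

lemma pr_congr {U : Finset Z2} {B B' : Bnd → ℝ} (H : ∀ e ∈ bd U, B e = B' e) (m : Bnd → ℤ)
    (h : Z2 → ℤ) : pr U B m h = pr U B' m h :=
  Finset.sum_congr rfl fun e he => by rw [H e he]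

/-- the heights with the opposite sign -/
def ng (U : Finset Z2) : Ht U ≃ Ht U where
  toFun h := ⟨-h.1, fun f hf => by rw [Pi.neg_apply, h.2 f hf, neg_zero]⟩
  invFun h := ⟨-h.1, fun f hf => by rw [Pi.neg_apply, h.2 f hf, neg_zero]⟩
  left_inv h := by simp
  right_inv h := by simp

lemma wt_neg (b : ℝ) (U : Finset Z2) (h : Z2 → ℤ) : wt b U 0 (-h) = wt b U 0 h := by
  unfold wt
  refine Finset.prod_congr rfl fun e _ => ?_
  have : dh (-h) e + (0 : Bnd → ℤ) e = -(dh h e + (0 : Bnd → ℤ) e) := by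
    simp only [dh, Pi.neg_apply, Pi.zero_apply]
    ring
  rw [this, wI_neg]

lemma tsum_ng (b : ℝ) (U : Finset Z2) (F : (Z2 → ℤ) → ℝ) :
    ∑' h : Ht U, wt b U 0 h.1 * F (-h.1) = ∑' h : Ht U, wt b U 0 h.1 * F h.1 := by
  rw [← (ng U).tsum_eq fun h : Ht U => wt b U 0 h.1 * F h.1]
  refine tsum_congr fun h => ?_
  show _ = wt b U 0 (-h.1) * F (-h.1)
  rw [wt_neg]

/-- the sum with `cosh` instead of `exp` -/
lemma ZB_cosh {b : ℝ} (hb : 0 ≤ b) (U : Finset Z2) (B : Bnd → ℝ) :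
    ZB b U 0 B = ∑' h : Ht U, wt b U 0 h.1 * Real.cosh (pr U B 0 h.1) := by
  have e1 : ∑' h : Ht U, wt b U 0 h.1 * Real.exp (-pr U B 0 h.1) = ZB b U 0 B := by
    have := tsum_ng b U fun h => Real.exp (pr U B 0 h)
    simp only [pr_neg_h] at this
    exact this
  have s1 := summable_exp hb U 0 B
  have s2 : Summable fun h : Ht U => wt b U 0 h.1 * Real.exp (-pr U B 0 h.1) :=
    summable_wt hb U 0 B (F := fun h => Real.exp (-pr U B 0 h)) (C := 1) fun h => by
      rw [abs_of_pos (Real.exp_pos _), one_mul]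
      exact Real.exp_le_exp.2 (neg_le_abs _)
  have e2 : 2 * ∑' h : Ht U, wt b U 0 h.1 * Real.cosh (pr U B 0 h.1) =
      ZB b U 0 B + ∑' h : Ht U, wt b U 0 h.1 * Real.exp (-pr U B 0 h.1) := by
    unfold ZB
    rw [← s1.tsum_add s2, ← tsum_mul_left]
    refine tsum_congr fun h => ?_
    rw [Real.cosh_eq]
    ring
  rw [e1] at e2
  linarith

/-- **the exponential moment is at least `1 + Var/2`** -/
theorem ZB_ge {b : ℝ} (hb : 0 ≤ b) (U : Finset Z2) (B : Bnd → ℝ) :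
    (1 + Vr b U B / 2) * Z b U ≤ ZB b U 0 B := by
  have hZ := Z_pos hb U
  have h1 : Vr b U B * Z b U = ∑' h : Ht U, wt b U 0 h.1 * pr U B 0 h.1 ^ 2 := by
    unfold Vr E
    rw [div_mul_cancel₀ _ hZ.ne']
  have s1 := summable_one hb U 0
  have s2 := (summable_sq hb U 0 B).mul_left (1 / 2)
  have s3 : Summable fun h : Ht U => wt b U 0 h.1 * Real.cosh (pr U B 0 h.1) :=
    summable_wt hb U 0 B (F := fun h => Real.cosh (pr U B 0 h)) (C := 1) fun h => by
      rw [abs_of_pos (Real.cosh_pos _), one_mul, ← Real.cosh_abs, Real.cosh_eq]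
      have : Real.exp (-|pr U B 0 h.1|) ≤ Real.exp |pr U B 0 h.1| :=
        Real.exp_le_exp.2 (by linarith [abs_nonneg (pr U B 0 h.1)])
      linarith
  have h2 : (1 + Vr b U B / 2) * Z b U = ∑' h : Ht U, (wt b U 0 h.1 +
      1 / 2 * (wt b U 0 h.1 * pr U B 0 h.1 ^ 2)) := by
    rw [s1.tsum_add s2, tsum_mul_left, ← h1]
    unfold Z
    ring
  rw [h2, ZB_cosh hb]
  refine (s1.add s2).tsum_le_tsum (fun h => ?_) s3
  have h3 := H910.cosh_low (pr U B 0 h.1)
  have h4 := mul_le_mul_of_nonneg_left h3 (wt_nonneg hb U 0 h.1)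
  linarith

/-! ### the covariance form -/

/-- covariance of `B.∇h` and `B'.∇h` -/
noncomputable def Cv (b : ℝ) (U : Finset Z2) (B B' : Bnd → ℝ) : ℝ :=
  E b U fun h => pr U B 0 h * pr U B' 0 h

lemma Cv_self (b : ℝ) (U : Finset Z2) (B : Bnd → ℝ) : Cv b U B B = Vr b U B := by
  unfold Cv Vr E
  congr 1
  refine tsum_congr fun h => ?_
  simp only
  ring

lemma Cv_comm (b : ℝ) (U : Finset Z2) (B B' : Bnd → ℝ) : Cv b U B B' = Cv b U B' B := by
  unfold Cv E
  simp only [mul_comm (pr U B 0 _)]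

lemma Vr_nonneg {b : ℝ} (hb : 0 ≤ b) (U : Finset Z2) (B : Bnd → ℝ) : 0 ≤ Vr b U B := by
  unfold Vr E
  refine div_nonneg (tsum_nonneg fun h => ?_) (Z_pos hb U).le
  exact mul_nonneg (wt_nonneg hb U 0 h.1) (sq_nonneg _)

lemma Cv_add_left {b : ℝ} (hb : 0 ≤ b) (U : Finset Z2) (B B' B'' : Bnd → ℝ) :
    Cv b U (fun e => B e + B' e) B'' = Cv b U B B'' + Cv b U B' B'' := by
  unfold Cv E
  rw [← add_div, ← (summable_mul hb U 0 B B'').tsum_add (summable_mul hb U 0 B' B'')]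
  congr 1
  refine tsum_congr fun h => ?_
  simp only
  rw [pr_add]
  ring

lemma Cv_smul_left (b : ℝ) (U : Finset Z2) (c : ℝ) (B B' : Bnd → ℝ) :
    Cv b U (fun e => c * B e) B' = c * Cv b U B B' := by
  unfold Cv E
  rw [← mul_div_assoc, ← tsum_mul_left]
  congr 1
  refine tsum_congr fun h => ?_
  simp only
  rw [pr_smul]
  ring

lemma Cv_add_right {b : ℝ} (hb : 0 ≤ b) (U : Finset Z2) (B B' B'' : Bnd → ℝ) :
    Cv b U B (fun e => B' e + B'' e) = Cv b U B B' + Cv b U B B'' := by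
  rw [Cv_comm, Cv_add_left hb, Cv_comm b U B', Cv_comm b U B'']

lemma Cv_smul_right (b : ℝ) (U : Finset Z2) (c : ℝ) (B B' : Bnd → ℝ) :
    Cv b U B (fun e => c * B' e) = c * Cv b U B B' := by
  rw [Cv_comm, Cv_smul_left, Cv_comm]

lemma Vr_smul (b : ℝ) (U : Finset Z2) (c : ℝ) (B : Bnd → ℝ) :
    Vr b U (fun e => c * B e) = c ^ 2 * Vr b U B := by
  rw [← Cv_self, Cv_smul_left, Cv_smul_right, Cv_self]
  ring

lemma Vr_add {b : ℝ} (hb : 0 ≤ b) (U : Finset Z2) (B B' : Bnd → ℝ) :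
    Vr b U (fun e => B e + B' e) = Vr b U B + 2 * Cv b U B B' + Vr b U B' := by
  rw [← Cv_self, Cv_add_left hb, Cv_add_right hb, Cv_add_right hb, Cv_self, Cv_self,
    Cv_comm b U B' B]
  ring

lemma Vr_add_smul {b : ℝ} (hb : 0 ≤ b) (U : Finset Z2) (B B' : Bnd → ℝ) (x : ℝ) :
    Vr b U (fun e => B e + x * B' e) = Vr b U B + 2 * x * Cv b U B B' + x ^ 2 * Vr b U B' := by
  rw [Vr_add hb U B fun e => x * B' e, Cv_smul_right, Vr_smul]
  ring

lemma Vr_congr {U : Finset Z2} {B B' : Bnd → ℝ} (H : ∀ e ∈ bd U, B e = B' e) (b : ℝ) :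
    Vr b U B = Vr b U B' := by
  unfold Vr E
  simp only [pr_congr H]

/-- the discriminant -/
lemma disc {A K D : ℝ} (H : ∀ x : ℝ, 0 ≤ A + 2 * x * K + x ^ 2 * D) : K ^ 2 ≤ A * D := by
  have h1 := discrim_le_zero (a := D) (b := 2 * K) (c := A) fun x => by
    have := H x
    nlinarith
  unfold discrim at h1
  nlinarith

/-- **Cauchy-Schwarz** -/
theorem Cv_sq_le {b : ℝ} (hb : 0 ≤ b) (U : Finset Z2) (B B' : Bnd → ℝ) :
    Cv b U B B' ^ 2 ≤ Vr b U B * Vr b U B' :=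
  disc fun x => by
    rw [← Vr_add_smul hb]
    exact Vr_nonneg hb U _

end Vale.Agent.P159.T1.D.H469
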